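import Vale.Agent.Lib.P085.Concrete

/-!
# P085: von Neumann algebras generated by two projections and a self-adjoint operator

Every von Neumann algebra (on an arbitrary complex Hilbert space) generated by two orthogonal
projections and one bounded self-adjoint operator is singly generated.  In particular every
von Neumann algebra generated by three projections is singly generated.
-/

namespace Vale.Agent.Results.P085.TwoProjSelfAdjoint

open Vale.Agent.Lib.P085

theorem result {H : Type*} [NormedAddCommGroup H] [InnerProductSpace ℂ H] [CompleteSpace H]
    (M : VonNeumannAlgebra H) (p q c : H →L[ℂ] H)
    (hp : IsStarProjection p) (hq : IsStarProjection q) (hc : IsSelfAdjoint c)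
    (hM : IsGeneratedBy M {p, q, c}) : IsSinglyGenerated M :=
  singly_generated_of_two_proj_sa M hp hq hc hM

end Vale.Agent.Results.P085.TwoProjSelfAdjoint
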